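import Vale.Agent.Lib.P075.Block
import Vale.Agent.Lib.P075.Tree
import Vale.Agent.Lib.P075.Measure

/-!
# P075, question Q2: the dyadic triangular Hilbert form is uniformly bounded on `L³ × L³ × L³`.

The constant is `1200`; it does not depend on the finite set of scales, on the signs,
or on the functions.
-/

namespace Vale.Agent.Results.P075.A_dyadic_bounded

open Vale.Agent.Lib.P075

/-- Uniform bound for the dyadic triangular Hilbert form at the symmetric point `(3, 3, 3)`. -/
theorem result (S : Finset ℤ) (ε : ℤ → ℝ) (hε : ∀ k, |ε k| ≤ 1)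
    (F₀ F₁ F₂ : ℝ × ℝ → ℝ) (h₀ : Admissible F₀) (h₁ : Admissible F₁) (h₂ : Admissible F₂) :
    |dyadicForm S ε F₀ F₁ F₂| ≤ 1200 * L3 F₀ * L3 F₁ * L3 F₂ :=
  final_of_discrete (discrete_of_block blockLemma) S ε hε F₀ F₁ F₂ h₀ h₁ h₂

end Vale.Agent.Results.P075.A_dyadic_bounded
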